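/-
S0453 (row 299), work package BJ2, graph side.

`pairClassJ2`: the pair-class interface `Crest.Agent.Helper49.SW.PairClassJ2 d a b` of helper49's
`j2Graph_of_model`, for every `a ≠ b`: in helper65's Johnson coordinates
(`freeSet`, `toSet`, `ofSet`) the switch `SwAt · a b c e` of helper10's pair interface is
"`c ∈ A`, `e ∈ D \ A`", and its `flip` is the Johnson exchange `A ↦ insert e (A.erase c)`.

`j2Graph`: the hypothesis-free `(J2-graph)`, i.e. `Crest.Agent.Helper10.S0453.J2Graph d f`.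
-/
import Crest.Agent.Helper65.Switch.PairClass
import Crest.Agent.Helper10.S0453.DPApi
import Crest.Agent.Helper49.SW.BJ2

set_option autoImplicit false

namespace Crest.Agent.Helper39.S0453

open Finset Crest.SwitchChain Crest.Agent.Helper65.Switch

local notation "SwAt'" => Crest.Agent.Helper10.S0453.SwAt
local notation "flip'" => Crest.Agent.Helper10.S0453.flip
local notation "D4'" => Crest.Agent.Helper10.S0453.D4

variable {n : ℕ} {d : Fin n → ℕ}

/-- `SwAt` in Johnson coordinates, for a member of the `~_{ab}`-class of `G0`. -/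
lemma swAt_iff_toSet {G0 G : Finset (Edge n)} {a b c e : Fin n} (hG0 : G0 ∈ realizations d)
    (hG : G ∈ cls d {a, b} G0) (hD : D4' a b c e) :
    SwAt' G a b c e ↔ c ∈ toSet G0 a b G ∧ e ∈ freeSet G0 a b ∧ e ∉ toSet G0 a b G := by
  obtain ⟨h1, h2, h3, h4, h5, h6⟩ := hD
  have hF := freeSet_of_mem_cls hG0 h1 hG
  rw [mem_toSet, mem_toSet, ← hF, mem_freeSet, mem_freeSet]
  have hca : c ≠ a := h2.symm
  have hcb : c ≠ b := h4.symm
  have hea : e ≠ a := h3.symm
  have heb : e ≠ b := h5.symm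
  unfold Crest.Agent.Helper10.S0453.SwAt
  tauto

/-- The Johnson coordinate of the flipped graph is the exchanged set. -/
lemma toSet_flip {G0 G : Finset (Edge n)} {a b c e : Fin n} (hG0 : G0 ∈ realizations d)
    (hG : G ∈ cls d {a, b} G0) (hD : D4' a b c e) (h : SwAt' G a b c e) :
    toSet G0 a b (flip' a b c e G) = insert e ((toSet G0 a b G).erase c) := by
  have hsw := (swAt_iff_toSet hG0 hG hD).1 h
  obtain ⟨h1, h2, h3, h4, h5, h6⟩ := hD
  obtain ⟨s1, s2, s3, s4⟩ := h
  have hcD : c ∈ freeSet G0 a b := (mem_toSet.1 hsw.1).1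
  have heD : e ∈ freeSet G0 a b := hsw.2.1
  ext w
  rw [mem_toSet, mem_insert, mem_erase, mem_toSet]
  by_cases hwe : w = e
  · rw [hwe, Crest.Agent.Helper10.S0453.adj_flip_of_blk h3 (Or.inl ⟨Or.inl rfl, Or.inr rfl⟩)]
    have hee : e = e := rfl
    tauto
  · by_cases hwc : w = c
    · rw [hwc, Crest.Agent.Helper10.S0453.adj_flip_of_blk h2 (Or.inl ⟨Or.inl rfl, Or.inl rfl⟩)]
      have hcc : c = c := rfl
      tauto
    · have hnb : ¬ (((a = a ∨ a = b) ∧ (w = c ∨ w = e)) ∨ ((a = c ∨ a = e) ∧ (w = a ∨ w = b))) := by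
        tauto
      rw [Crest.Agent.Helper10.S0453.adj_flip_of_not_blk hnb]
      tauto

/-- **BJ2, graph side**: the pair-class interface of helper49's `j2Graph_of_model`. -/
theorem pairClassJ2 {a b : Fin n} (hab : a ≠ b) : Crest.Agent.Helper49.SW.PairClassJ2 d a b := by
  intro G0 hG0
  refine ⟨freeSet G0 a b, (toSet G0 a b G0).card, ofSet G0 a b, ?_, ?_, ?_, ?_, ?_, ?_, ?_⟩
  · exact fun h => (mem_freeSet.1 h).1 rfl
  · exact fun h => (mem_freeSet.1 h).2.1 rfl
  · intro A hA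
    obtain ⟨hA1, hA2⟩ := mem_powersetCard.1 hA
    exact ofSet_mem_cls hG0 hab hA1 hA2
  · intro G hG
    exact ⟨toSet G0 a b G, toSet_mem_powersetCard hG0 hab hG, eq_ofSet_of_mem_cls hG0 hab hG⟩
  · intro A hA A' hA' h
    have e1 := toSet_ofSet (G0 := G0) hab (mem_powersetCard.1 hA).1
    have e2 := toSet_ofSet (G0 := G0) hab (mem_powersetCard.1 hA').1
    rw [← e1, ← e2, h]
  · intro A hA c e hD
    obtain ⟨hA1, hA2⟩ := mem_powersetCard.1 hA
    have hcls := ofSet_mem_cls hG0 hab hA1 hA2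
    rw [swAt_iff_toSet hG0 hcls hD, toSet_ofSet hab hA1]
  · intro A hA c hc e he
    obtain ⟨hA1, hA2⟩ := mem_powersetCard.1 hA
    obtain ⟨heD, heA⟩ := mem_sdiff.1 he
    have hcD := hA1 hc
    have hD : D4' a b c e :=
      ⟨hab, (mem_freeSet.1 hcD).1.symm, (mem_freeSet.1 heD).1.symm,
        (mem_freeSet.1 hcD).2.1.symm, (mem_freeSet.1 heD).2.1.symm, fun hce => heA (hce ▸ hc)⟩
    have hcls := ofSet_mem_cls hG0 hab hA1 hA2
    have hsw : SwAt' (ofSet G0 a b A) a b c e := by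
      rw [swAt_iff_toSet hG0 hcls hD, toSet_ofSet hab hA1]
      exact ⟨hc, heD, heA⟩
    have hfl : flip' a b c e (ofSet G0 a b A) ∈ cls d {a, b} G0 := by
      have h1 := Crest.Agent.Helper10.S0453.flip_mem_cls_left hD (mem_cls.1 hcls).1 (Or.inl hsw)
      rwa [cls_eq_of_mem hcls] at h1
    have h2 := eq_ofSet_of_mem_cls hG0 hab hfl
    rw [toSet_flip hG0 hcls hD hsw, toSet_ofSet hab hA1] at h2
    exact h2.symm

/-- **BJ2**: `(J2-graph)`, hypothesis-free. -/
theorem j2Graph (d : Fin n → ℕ) (f : Finset (Edge n) → ℝ) :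
    Crest.Agent.Helper10.S0453.J2Graph d f :=
  Crest.Agent.Helper49.SW.j2Graph_of_model d (fun _ _ hab => pairClassJ2 hab) f

end Crest.Agent.Helper39.S0453
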